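import Vale.Agent.Lib.P230.Ball.LeafCount

/-!
# P230: counting the good leaves of a cube, sharper form.

`leaf_count43`: for `a ∈ [0,1]^t` at least `10^(-165) * (7/4)^t` vertices `q` of the cube have
`∑ (a i - q i)² ≤ (201/800) t`. Weights: `3/4` at the rounding of `a i`, `1/4` at the other bit;
the mean cost is at most `t/4`, Markov gives weight `≥ 1/201` on the good vertices, and a
Young inequality of order `64/63` with the explicit `s₀ = .746584 ≥ (3/4)^(64/63)`,
`s₁ = .244559 ≥ (1/4)^(64/63)` turns the weight into a count.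
-/

set_option autoImplicit false

open Finset

namespace Vale.Agent.Lib.P230.Lin43

open Vale.Agent.Lib.P230.LeafAux

/-- the dominating weight of a bit -/
noncomputable def sh43 (x : ℝ) (b : Bool) : ℝ := if b = rnd x then 746584 / 1000000 else 244559 / 1000000

lemma sh43_pos (x : ℝ) (b : Bool) : 0 < sh43 x b := by
  unfold sh43
  split_ifs <;> norm_num

lemma sh43_sum (x : ℝ) : ∑ b : Bool, sh43 x b = 991143 / 1000000 := by
  rw [Fintype.sum_bool]
  unfold sh43
  cases rnd x <;> simp <;> norm_num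

lemma wt_pow_le43 (x : ℝ) (b : Bool) : wt x b ^ 64 ≤ sh43 x b ^ 63 := by
  unfold wt sh43
  split_ifs <;> norm_num

/-- Young: `x⁶⁴ ≤ y⁶³` gives `x ≤ (63/64) y / ζ + (1/64) ζ⁶³`. -/
lemma young43 {x y ζ : ℝ} (hx : 0 ≤ x) (hy : 0 < y) (hζ : 0 < ζ) (h : x ^ 64 ≤ y ^ 63) :
    x ≤ (63 / 64) * (y / ζ) + (1 / 64) * ζ ^ 63 := by
  set A := y / ζ with hA
  set B := ζ ^ 63 with hB
  have hA0 : 0 < A := by positivity
  have hB0 : 0 < B := by positivity
  have e : A ^ 63 * B = y ^ 63 := by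
    rw [hA, hB]
    field_simp
  have key : A ^ 63 * B ≤ ((63 / 64) * A + (1 / 64) * B) ^ 64 := by
    set u : ℝ := (B - A) / (64 * A) with hu
    have hu1 : -2 ≤ u := by
      rw [hu, le_div_iff₀ (by positivity)]
      nlinarith
    have hb := one_add_mul_le_pow hu1 64
    have e1 : (63 / 64) * A + (1 / 64) * B = A * (1 + u) := by
      rw [hu]
      field_simp
      ring
    have e2 : 1 + ((64 : ℕ) : ℝ) * u = B / A := by
      rw [hu]
      push_cast
      field_simp
      ring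
    rw [e2] at hb
    rw [e1, mul_pow]
    calc A ^ 63 * B = A ^ 64 * (B / A) := by
          field_simp
      _ ≤ A ^ 64 * (1 + u) ^ 64 := mul_le_mul_of_nonneg_left hb (by positivity)
  have h4 : x ^ 64 ≤ ((63 / 64) * A + (1 / 64) * B) ^ 64 := by
    rw [← e] at h
    exact h.trans key
  exact (pow_le_pow_iff_left₀ hx (by positivity) (by norm_num)).1 h4

/-- At least `10^(-165) * (7/4)^t` vertices of the cube are within `∑ (a i - q i)² ≤ (201/800) t`
of a point `a ∈ [0,1]^t`. -/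
theorem leaf_count43 {t : ℕ} (a : Fin t → ℝ) (ha : ∀ i, 0 ≤ a i ∧ a i ≤ 1) :
    (1 / 10 ^ 165 : ℝ) * (7 / 4 : ℝ) ^ t ≤
      ((univ.filter fun q : Fin t → Bool =>
        ∑ i, (a i - bitv (q i)) ^ 2 ≤ (201 / 800) * (t : ℝ)).card : ℝ) := by
  classical
  set good : Finset (Fin t → Bool) := univ.filter fun q : Fin t → Bool =>
    ∑ i, (a i - bitv (q i)) ^ 2 ≤ (201 / 800) * (t : ℝ) with hgood
  let w : (Fin t → Bool) → ℝ := fun q => ∏ i, wt (a i) (q i)
  let s : (Fin t → Bool) → ℝ := fun q => ∏ i, sh43 (a i) (q i)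
  let cost : (Fin t → Bool) → ℝ := fun q => ∑ i, (a i - bitv (q i)) ^ 2
  have hw0 : ∀ q, 0 < w q := fun q => Finset.prod_pos fun i _ => wt_pos _ _
  have hs0 : ∀ q, 0 < s q := fun q => Finset.prod_pos fun i _ => sh43_pos _ _
  have hc0 : ∀ q, 0 ≤ cost q := fun q => Finset.sum_nonneg fun i _ => sq_nonneg _
  -- sums over the cube
  have prod_sum : ∀ f : Fin t → Bool → ℝ,
      ∑ q : Fin t → Bool, ∏ i, f i (q i) = ∏ i, ∑ b : Bool, f i b := by
    intro f
    rw [Finset.prod_univ_sum, Fintype.piFinset_univ]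
  have hw1 : ∑ q, w q = 1 := by
    show ∑ q : Fin t → Bool, ∏ i, wt (a i) (q i) = 1
    rw [prod_sum (fun i b => wt (a i) b)]
    exact Finset.prod_eq_one fun i _ => wt_sum _
  have hs1 : ∑ q, s q = (991143 / 1000000 : ℝ) ^ t := by
    show ∑ q : Fin t → Bool, ∏ i, sh43 (a i) (q i) = _
    rw [prod_sum (fun i b => sh43 (a i) b)]
    simp only [sh43_sum, Finset.prod_const, Finset.card_univ, Fintype.card_fin]
  -- the mean of the cost
  have hmean : ∑ q, w q * cost q ≤ (t : ℝ) / 4 := by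
    have h1 : ∀ j : Fin t, ∑ q, w q * (a j - bitv (q j)) ^ 2 ≤ 1 / 4 := by
      intro j
      have e : ∀ q : Fin t → Bool, w q * (a j - bitv (q j)) ^ 2 =
          ∏ i, (wt (a i) (q i) * (if i = j then (a j - bitv (q i)) ^ 2 else 1)) := by
        intro q
        rw [Finset.prod_mul_distrib]
        congr 1
        rw [Finset.prod_ite_eq' univ j]
        simp
      simp_rw [e]
      rw [prod_sum (fun i b => wt (a i) b * (if i = j then (a j - bitv b) ^ 2 else 1))]
      rw [Finset.prod_eq_single j]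
      · simp only [if_true]
        exact cost_mean _ (ha j).1 (ha j).2
      · intro i _ hij
        simp only [if_neg hij, mul_one]
        exact wt_sum _
      · intro h
        exact absurd (Finset.mem_univ j) h
    calc ∑ q, w q * cost q = ∑ j : Fin t, ∑ q, w q * (a j - bitv (q j)) ^ 2 := by
          simp only [cost, Finset.mul_sum]
          rw [Finset.sum_comm]
      _ ≤ ∑ _j : Fin t, (1 / 4 : ℝ) := Finset.sum_le_sum fun j _ => h1 j
      _ = (t : ℝ) / 4 := by simp; ring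
  -- the weight of the good vertices
  have hP : (1 / 201 : ℝ) ≤ ∑ q ∈ good, w q := by
    rcases Nat.eq_zero_or_pos t with rfl | htpos
    · have h : good = univ := by
        rw [hgood, Finset.filter_true_of_mem]
        intro q _
        simp
      rw [h, hw1]
      norm_num
    have ht0 : (0 : ℝ) < t := by exact_mod_cast htpos
    have hsplit : ∑ q ∈ good, w q + ∑ q ∈ univ \ good, w q = 1 := by
      rw [← hw1]
      exact Finset.sum_add_sum_compl good w
    have hbad : (∑ q ∈ univ \ good, w q) * ((201 / 800) * (t : ℝ)) ≤ (t : ℝ) / 4 := by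
      rw [Finset.sum_mul]
      calc ∑ q ∈ univ \ good, w q * ((201 / 800) * (t : ℝ))
          ≤ ∑ q ∈ univ \ good, w q * cost q := by
            refine Finset.sum_le_sum fun q hq => ?_
            refine mul_le_mul_of_nonneg_left ?_ (hw0 q).le
            have hq' : q ∉ good := (Finset.mem_sdiff.1 hq).2
            rw [hgood, Finset.mem_filter] at hq'
            push Not at hq'
            exact (hq' (Finset.mem_univ q)).le
        _ ≤ ∑ q, w q * cost q := by
            refine Finset.sum_le_sum_of_subset_of_nonneg (Finset.subset_univ _) ?_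
            intro q _ _
            exact mul_nonneg (hw0 q).le (hc0 q)
        _ ≤ (t : ℝ) / 4 := hmean
    have hbad2 : ∑ q ∈ univ \ good, w q ≤ 200 / 201 := by
      have e : (∑ q ∈ univ \ good, w q) * ((201 / 800) * (t : ℝ)) ≤ (200 / 201) * ((201 / 800) * (t : ℝ)) := by
        calc _ ≤ (t : ℝ) / 4 := hbad
          _ = _ := by ring
      exact le_of_mul_le_mul_right e (by positivity)
    linarith
  -- the count
  set N : ℝ := (good.card : ℝ) with hN
  set S : ℝ := (991143 / 1000000 : ℝ) ^ t with hS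
  have hSpos : 0 < S := by positivity
  set P : ℝ := 1 / 201 with hPdef
  have hPpos : 0 < P := by rw [hPdef]; norm_num
  set ζ : ℝ := 63 * S / (32 * P) with hζ
  have hζ0 : 0 < ζ := by positivity
  have hpt : ∀ q, w q ≤ (63 / 64) * (s q / ζ) + (1 / 64) * ζ ^ 63 := by
    intro q
    refine young43 (hw0 q).le (hs0 q) hζ0 ?_
    show (∏ i, wt (a i) (q i)) ^ 64 ≤ (∏ i, sh43 (a i) (q i)) ^ 63
    rw [← Finset.prod_pow, ← Finset.prod_pow]
    exact Finset.prod_le_prod (fun i _ => by have := wt_pos (a i) (q i); positivity)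
      (fun i _ => wt_pow_le43 _ _)
  have hup : ∑ q ∈ good, w q ≤ (63 / 64) * (S / ζ) + (1 / 64) * ζ ^ 63 * N := by
    calc ∑ q ∈ good, w q ≤ ∑ q ∈ good, ((63 / 64) * (s q / ζ) + (1 / 64) * ζ ^ 63) :=
          Finset.sum_le_sum fun q _ => hpt q
      _ = (63 / 64) * ((∑ q ∈ good, s q) / ζ) + (1 / 64) * ζ ^ 63 * N := by
          rw [Finset.sum_add_distrib, ← Finset.mul_sum, ← Finset.sum_div, Finset.sum_const,
            nsmul_eq_mul]
          ring
      _ ≤ (63 / 64) * (S / ζ) + (1 / 64) * ζ ^ 63 * N := by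
          have h1 : ∑ q ∈ good, s q ≤ S := by
            rw [← hs1]
            exact Finset.sum_le_sum_of_subset_of_nonneg (Finset.subset_univ _)
              (fun q _ _ => (hs0 q).le)
          have h2 : (∑ q ∈ good, s q) / ζ ≤ S / ζ := div_le_div_of_nonneg_right h1 hζ0.le
          linarith
  have e1 : (63 / 64) * (S / ζ) = P / 2 := by
    rw [hζ]
    field_simp
    ring
  have h2 : P / 2 ≤ (1 / 64) * ζ ^ 63 * N := by
    have := hP.trans hup
    rw [e1] at this
    linarith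
  have h3 : 32 * (32 / 63) ^ 63 * P ^ 64 ≤ S ^ 63 * N := by
    have e2 : (1 / 64) * ζ ^ 63 * N = (1 / 64) * ((63 / 32) ^ 63 * (S ^ 63 / P ^ 63)) * N := by
      rw [hζ]
      field_simp
    rw [e2] at h2
    have hP3 : 0 < P ^ 63 := by positivity
    have h4 : P / 2 * P ^ 63 ≤ (1 / 64) * ((63 / 32) ^ 63 * (S ^ 63 / P ^ 63)) * N * P ^ 63 :=
      mul_le_mul_of_nonneg_right h2 hP3.le
    have e3 : (1 / 64) * ((63 / 32) ^ 63 * (S ^ 63 / P ^ 63)) * N * P ^ 63 =
        (1 / 64) * (63 / 32) ^ 63 * (S ^ 63 * N) := by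
      field_simp
    rw [e3] at h4
    have h5 : (32 / 63 : ℝ) ^ 63 * (63 / 32) ^ 63 = 1 := by
      rw [← mul_pow]
      norm_num
    have h7 := mul_le_mul_of_nonneg_left h4 (by positivity : (0 : ℝ) ≤ 64 * (32 / 63 : ℝ) ^ 63)
    have e4 : 64 * (32 / 63 : ℝ) ^ 63 * ((1 / 64) * (63 / 32) ^ 63 * (S ^ 63 * N)) =
        ((32 / 63 : ℝ) ^ 63 * (63 / 32) ^ 63) * (S ^ 63 * N) := by ring
    rw [e4, h5, one_mul] at h7
    calc 32 * (32 / 63) ^ 63 * P ^ 64 = 64 * (32 / 63 : ℝ) ^ 63 * (P / 2 * P ^ 63) := by ring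
      _ ≤ _ := h7
  -- numerics
  have h5 : (1 / 10 ^ 165 : ℝ) ≤ 32 * (32 / 63) ^ 63 * P ^ 64 := by
    rw [hPdef]
    norm_num
  have h6 : (7 / 4 : ℝ) ^ t * S ^ 63 ≤ 1 := by
    have e4 : (7 / 4 : ℝ) ^ t * S ^ 63 = ((7 / 4 : ℝ) * (991143 / 1000000) ^ 63) ^ t := by
      rw [hS, mul_pow, ← pow_mul, ← pow_mul, mul_comm t 63]
    rw [e4]
    exact pow_le_one₀ (by norm_num) (by norm_num)
  have hN0 : 0 ≤ N := Nat.cast_nonneg _
  have hg : (0 : ℝ) < (7 / 4 : ℝ) ^ t := by positivity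
  calc (1 / 10 ^ 165 : ℝ) * (7 / 4 : ℝ) ^ t
      ≤ (32 * (32 / 63) ^ 63 * P ^ 64) * (7 / 4 : ℝ) ^ t := mul_le_mul_of_nonneg_right h5 hg.le
    _ ≤ (S ^ 63 * N) * (7 / 4 : ℝ) ^ t := mul_le_mul_of_nonneg_right h3 hg.le
    _ = ((7 / 4 : ℝ) ^ t * S ^ 63) * N := by ring
    _ ≤ 1 * N := mul_le_mul_of_nonneg_right h6 hN0
    _ = N := one_mul _

/-- Number of good leaves guaranteed by `leaf_count43`. -/
noncomputable def leafN43 (t : ℕ) : ℕ := ⌈(1 / 10 ^ 165 : ℝ) * (7 / 4) ^ t⌉₊

end Vale.Agent.Lib.P230.Lin43
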