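import Vale.Agent.Lib.P230.Lin.Lattice3
import Vale.Agent.Lib.P230.Lin43.LeafCount

/-!
# P230 tuned schedule: the lattice for a ball window, copy of `Lin.lattice_data3` with the good heights
`∑ (u i / N)² ≤ (201/800) t`, the window `∑ x i ² ≤ (101/400) t` and the sharper leaf count.
-/

set_option autoImplicit false
set_option linter.unusedSectionVars false
set_option linter.unusedSimpArgs false
set_option linter.unusedVariables false

open MeasureTheory Finset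
open scoped ENNReal Matrix Pointwise
open Vale.Agent.Lib.P230.Ball Vale.Agent.Lib.P230.Lin

namespace Vale.Agent.Lib.P230.Lin43

variable {d t : ℕ}

/-- The good heights. -/
noncomputable def gHeights43 (t n : ℕ) : Finset (Fin t → ℤ) :=
  open Classical in
  (hbox t (2 * n)).filter fun u => ∑ i, ((u i : ℝ) / ((2 * n : ℕ) : ℝ)) ^ 2 ≤ (201 / 800) * (t : ℝ)

lemma mem_gHeights43 {t n : ℕ} (u : Fin t → ℤ) : u ∈ gHeights43 t n ↔
    (∀ i, -((2 * n : ℕ) : ℤ) ≤ u i ∧ u i < ((2 * n : ℕ) : ℤ)) ∧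
      ∑ i, ((u i : ℝ) / ((2 * n : ℕ) : ℝ)) ^ 2 ≤ (201 / 800) * (t : ℝ) := by
  classical
  unfold gHeights43
  rw [Finset.mem_filter, mem_hbox]

/-- The number of good leaves above a height. -/
lemma leafN_le43 {t n : ℕ} (hn : 0 < n) (u : Fin t → ℤ) (hu : ∀ i, 0 ≤ u i ∧ u i < ((2 * n : ℕ) : ℤ)) :
    open Classical in
    leafN43 t ≤ ((univ : Finset (Fin t → Bool)).filter fun q =>
      u - qshift ((2 * n : ℕ) : ℤ) q ∈ gHeights43 t n).card := by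
  classical
  have hN : (0 : ℝ) < ((2 * n : ℕ) : ℝ) := by
    have : 0 < 2 * n := by omega
    exact_mod_cast this
  set a : Fin t → ℝ := fun i => (u i : ℝ) / ((2 * n : ℕ) : ℝ) with ha
  have ha01 : ∀ i, 0 ≤ a i ∧ a i ≤ 1 := by
    intro i
    have h0 : (0 : ℝ) ≤ u i := by exact_mod_cast (hu i).1
    have h1 : (u i : ℝ) ≤ ((2 * n : ℕ) : ℝ) := by exact_mod_cast (hu i).2.le
    refine ⟨div_nonneg h0 hN.le, ?_⟩
    simp only [ha]
    rw [div_le_one hN]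
    exact h1
  have hc := leaf_count43 a ha01
  have hle : ((univ : Finset (Fin t → Bool)).filter fun q =>
      ∑ i, (a i - LeafAux.bitv (q i)) ^ 2 ≤ (201 / 800) * (t : ℝ)) ⊆
      ((univ : Finset (Fin t → Bool)).filter fun q =>
        u - qshift ((2 * n : ℕ) : ℤ) q ∈ gHeights43 t n) := by
    intro q hq
    rw [Finset.mem_filter] at hq ⊢
    refine ⟨hq.1, ?_⟩
    rw [mem_gHeights43]
    have hi : ∀ i, (((u - qshift ((2 * n : ℕ) : ℤ) q) i : ℤ) : ℝ) / ((2 * n : ℕ) : ℝ) =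
        a i - LeafAux.bitv (q i) := by
      intro i
      simp only [Pi.sub_apply, qshift, ha, LeafAux.bitv]
      by_cases hqi : q i = true
      · simp only [hqi, if_true]
        push_cast
        field_simp
      · simp only [hqi, if_false]
        push_cast
        simp
    constructor
    · intro i
      have h1 := hu i
      simp only [Pi.sub_apply, qshift]
      by_cases hqi : q i = true
      · simp only [hqi, if_true]
        omega
      · simp only [hqi, if_false]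
        omega
    · simp_rw [hi]
      exact hq.2
  unfold leafN43
  apply Nat.ceil_le.mpr
  refine hc.trans ?_
  exact_mod_cast Finset.card_le_card hle

/-- The product of the void fractions along the cube. -/
lemma prod_sigma_le43 {t n : ℕ} (hn : 0 < n) (ε : ℝ) (hε0 : 0 < ε) (hε1 : ε ≤ 1) (u : Fin t → ℤ)
    (hu : ∀ i, 0 ≤ u i ∧ u i < ((2 * n : ℕ) : ℤ)) (σ : (Fin t → ℤ) → ℝ)
    (hσ : ∀ w, σ w = open Classical in if w ∈ gHeights43 t n then ε else 1) :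
    ∏ q : Fin t → Bool, σ (u - qshift ((2 * n : ℕ) : ℤ) q) ≤ ε ^ leafN43 t := by
  classical
  have h1 : ∏ q : Fin t → Bool, σ (u - qshift ((2 * n : ℕ) : ℤ) q) =
      ε ^ ((univ : Finset (Fin t → Bool)).filter fun q =>
        u - qshift ((2 * n : ℕ) : ℤ) q ∈ gHeights43 t n).card := by
    simp_rw [hσ]
    rw [Finset.prod_ite]
    simp
  rw [h1]
  exact pow_le_pow_of_le_one hε0.le hε1 (leafN_le43 hn u hu)

/-- Numerics of the dilation of the heights. -/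
lemma aux_dil43 (δ : ℝ) (hδ0 : 0 < δ) (hδk : δ ≤ 1 / 1000) (s T : ℝ) (hT : 0 ≤ T) (hs0 : 0 ≤ s)
    (hs : s ≤ (201 / 800) * T) : ((1 - 2 * δ)⁻¹) ^ 2 * s ≤ (101 / 400) * T := by
  have hκ0 : 0 < 1 - 2 * δ := by linarith
  have h3 : ((1 - 2 * δ)⁻¹) ^ 2 ≤ (1000 / 998) ^ 2 := by
    apply pow_le_pow_left₀ (by positivity)
    rw [inv_le_comm₀ hκ0 (by norm_num)]
    norm_num
    linarith
  calc ((1 - 2 * δ)⁻¹) ^ 2 * s ≤ (1000 / 998) ^ 2 * ((201 / 800) * T) :=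
        mul_le_mul h3 hs hs0 (by positivity)
    _ ≤ (101 / 400) * T := by nlinarith

/-- Small heights have a point of the body above them. -/
lemma aux_win43 (K' : Set ((Fin d → ℝ) × (Fin t → ℝ))) (V₀ : ℝ) (hV₀ : 0 < V₀)
    (hwin : ∀ x : Fin t → ℝ, ∑ i, x i ^ 2 ≤ (101 / 400) * (t : ℝ) →
      ENNReal.ofReal V₀ ≤ volume {y : Fin d → ℝ | (y, x) ∈ K'})
    (x : Fin t → ℝ) (hx : ∀ i, 0 ≤ x i ∧ x i ≤ 1 / 2) : ∃ y, (y, x) ∈ K' := by
  have hsm : ∑ i, x i ^ 2 ≤ (101 / 400) * (t : ℝ) := by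
    have h0 : ∑ i, x i ^ 2 ≤ ∑ _i : Fin t, (1 / 4 : ℝ) := by
      apply Finset.sum_le_sum
      intro i _
      have h1 := (hx i).1
      have h2 := (hx i).2
      nlinarith
    simp only [Finset.sum_const, Finset.card_univ, Fintype.card_fin, nsmul_eq_mul] at h0
    have ht0 : (0 : ℝ) ≤ t := Nat.cast_nonneg t
    linarith
  have h1 := hwin x hsm
  have h2 : 0 < volume {y : Fin d → ℝ | (y, x) ∈ K'} :=
    lt_of_lt_of_le (by simp only [ENNReal.ofReal_pos]; exact hV₀) h1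
  obtain ⟨y, hy⟩ := nonempty_of_measure_ne_zero h2.ne'
  exact ⟨y, hy⟩

/-- Existence of the lattice in the window. -/
theorem lattice_data43 : ∃ d₀ : ℕ, ∀ d ≥ d₀, ∀ t n : ℕ, n = d + t → 1000 ≤ n →
    ((4 * (n : ℝ)) ^ t ≤ 2 ^ (mstar2 d / 16)) →
    (((4 * (n : ℝ)) ^ t) ^ (2 ^ t - 1) * ((1 / 2 : ℝ) ^ (mstar2 d / 4)) ^ (leafN43 t) <
      (1 / 2) * (1 / (4 * (n : ℝ))) ^ d) →
    ∀ K' : Set ((Fin d → ℝ) × (Fin t → ℝ)), Convex ℝ K' → IsCompact K' → ∀ V₀ : ℝ, 0 < V₀ →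
    (∀ x : Fin t → ℝ, ∑ i, x i ^ 2 ≤ (101 / 400) * (t : ℝ) →
      ENNReal.ofReal V₀ ≤ volume {y : Fin d → ℝ | (y, x) ∈ K'}) →
    ∃ (B : Matrix (Fin d ⊕ Fin t) (Fin d ⊕ Fin t) ℤ) (R : ℕ), 0 < R ∧
      (∀ x : (Fin d → ℝ) × (Fin t → ℝ), ∃ k : Fin d ⊕ Fin t → ℤ,
        (x.1 - (fun i => ((B.mulVec k (Sum.inl i) : ℤ) : ℝ) / R),
          x.2 - (fun i => ((B.mulVec k (Sum.inr i) : ℤ) : ℝ))) ∈ K') ∧
      (R : ℝ) ^ d * ((1 - 2 / (n : ℝ)) ^ d * V₀) / 2 ^ (efin2 d + 2) ≤ |(B.det : ℝ)| := by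
  classical
  obtain ⟨d₁, hd₁⟩ := base_hash2
  obtain ⟨d₂, hd₂⟩ := schedule_big
  refine ⟨max d₁ d₂, fun d hd t n hn hn8 hnum1 hnum2 K' hK'c hK' V₀ hV₀ hwin => ?_⟩
  have hBig := hd₂ d (le_trans (le_max_right _ _) hd)
  have hbase := hd₁ d (le_trans (le_max_left _ _) hd)
  have hdge : 2 ≤ d := hBig.1
  have hd0 : 0 < d := by omega
  have hn0 : 0 < n := by omega
  have hnR : (1000 : ℝ) ≤ n := by exact_mod_cast hn8
  have hnR0 : (0 : ℝ) < n := by linarith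
  set δ : ℝ := 1 / (n : ℝ) with hδ
  have hδ0 : 0 < δ := by positivity
  have hδk : δ ≤ 1 / 1000 := by
    rw [hδ]
    apply one_div_le_one_div_of_le (by norm_num) hnR
  have hδ8 : δ ≤ 1 / 8 := by linarith
  have hδ1 : δ ≤ 1 / 4 := by linarith
  have hκ : 1 - 2 * δ = 1 - 2 / (n : ℝ) := by
    rw [hδ]
    ring
  have hκ0 : 0 < 1 - 2 * δ := by linarith
  have hκ1 : 1 - 2 * δ ≤ 1 := by linarith
  have hzero : ∑ i : Fin t, ((0 : Fin t → ℝ) i) ^ 2 ≤ (101 / 400) * (t : ℝ) := by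
    simp only [Pi.zero_apply]
    simp
  obtain ⟨cy, C₁, C₀, hcy, hC₁c, hC₁K, hC₀c, hC₀K, hsym, hC, hadd, hv₁, hv₀, r, hr, hball⟩ :=
    eroder2 hd0 K' hK'c hK' V₀ hV₀ (hwin 0 hzero) δ hδ0
  -- the family of bodies
  let U : Type := ↥(gHeights43 t n)
  have hdil : ∀ u : U, ENNReal.ofReal V₀ ≤ volume {y : Fin d → ℝ |
      (y, (1 - 2 * δ)⁻¹ • (fun i => (u.1 i : ℝ) / ((2 * n : ℕ) : ℝ))) ∈ K'} := by
    intro u
    apply hwin
    have h1 := ((mem_gHeights43 u.1).mp u.2).2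
    have h2 : ∑ i, (((1 - 2 * δ)⁻¹ • (fun i => (u.1 i : ℝ) / ((2 * n : ℕ) : ℝ))) i) ^ 2 =
        ((1 - 2 * δ)⁻¹) ^ 2 * ∑ i, ((u.1 i : ℝ) / ((2 * n : ℕ) : ℝ)) ^ 2 := by
      rw [Finset.mul_sum]
      apply Finset.sum_congr rfl
      intro i _
      simp only [Pi.smul_apply, smul_eq_mul]
      ring
    rw [h2]
    have ht0 : (0 : ℝ) ≤ t := Nat.cast_nonneg t
    have h4 : 0 ≤ ∑ i, ((u.1 i : ℝ) / ((2 * n : ℕ) : ℝ)) ^ 2 :=
      Finset.sum_nonneg fun i _ => sq_nonneg _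
    exact aux_dil43 δ hδ0 hδk _ _ ht0 h4 h1
  choose B' hB'c hB'K hB'v hB'mem using fun u : U =>
    body_family2 hd0 K' hK'c hK' V₀ hV₀ δ hδ0 hδ1 cy (fun i => (u.1 i : ℝ) / ((2 * n : ℕ) : ℝ)) (hdil u)
  set V₁ : ℝ := (1 - 2 * δ) ^ d * V₀ with hV₁def
  have hV₁ : 0 < V₁ := by positivity
  have hB'v' : ∀ u, (volume (B' u)).toReal = V₁ := by
    intro u
    rw [hB'v u, ENNReal.toReal_ofReal hV₁.le]
  choose! W₀fun hW₀fun using hbase
  have hv₁' : (volume C₁).toReal = (δ / 4) ^ d * V₀ := by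
    rw [hv₁, ENNReal.toReal_ofReal (by positivity)]
  have hv₀' : (volume C₀).toReal = (δ / 2) ^ d * V₀ := by
    rw [hv₀, ENNReal.toReal_ofReal (by positivity)]
  obtain ⟨θ, R, W, Q, P, hθ, hR, hP, hW, hQ1, hQ2, hgood, hP1, hP2, hY1c, hY0c, hRr, hPdvd⟩ :=
    select_R hdge B' V₁ hV₁ hB'c hB'K hB'v' C₁ C₀ hC₁c hC₁K hC₀c hC₀K ((δ / 4) ^ d * V₀)
      ((δ / 2) ^ d * V₀) (by positivity) (by positivity) hv₁' hv₀' (e02 d) r hr W₀fun
  have : Fact P.Prime := ⟨hP⟩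
  have hR0 : (0 : ℝ) < R := by exact_mod_cast hR
  have hRd : (0 : ℝ) < (R : ℝ) ^ d := by positivity
  have hPpos : (0 : ℝ) < P := by exact_mod_cast hP.pos
  set Y0 : Finset (Fin d → ℤ) := (lat C₀ R).erase 0 with hY0
  have hY0dvd : ∀ y ∈ Y0, ∃ i, ¬ (P : ℤ) ∣ y i := by
    intro y hy
    rw [hY0, Finset.mem_erase] at hy
    exact hPdvd y hy.2 hy.1
  have hY0card : 8 * Y0.card ≤ P := by
    have h1 : (Y0.card : ℝ) ≤ (lat C₀ R).card := by
      exact_mod_cast Finset.card_erase_le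
    exact aux_Y0card3 hBig.2.2 δ hδ0 hδ8 V₀ hV₀ R P _ hRd (h1.trans hY0c) hP2
  have hUcard : (Fintype.card U : ℝ) ≤ (4 * (n : ℝ)) ^ t := by
    have h1 : Fintype.card U ≤ (2 * (2 * n)) ^ t := by
      rw [Fintype.card_coe, ← card_hbox]
      exact Finset.card_filter_le _ _
    have h2 : (Fintype.card U : ℝ) ≤ (((2 * (2 * n)) ^ t : ℕ) : ℝ) := by exact_mod_cast h1
    refine h2.trans (le_of_eq ?_)
    push_cast
    ring
  obtain ⟨r', ρ, hne, hvoid⟩ := hW₀fun θ hθ U (fun u => lat (B' u) R) ((R : ℝ) ^ d * V₁) W Q P Y0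
    (hUcard.trans hnum1) hW hQ1 hQ2 hgood hP1 hP2 hY0dvd hY0card
  have hcardG : (Fintype.card (ZMod P × (Fin (mstar2 d) → ZMod 2)) : ℝ) = (P : ℝ) * 2 ^ mstar2 d := by
    simp [Fintype.card_prod, ZMod.card, Fintype.card_fun]
  have hm := hBig.2.1
  set ε : ℝ := (1 / 2 : ℝ) ^ (mstar2 d / 4) with hε
  have hε0 : 0 < ε := by positivity
  have hε1 : ε < 1 / 2 := by
    have h1 : (1 / 2 : ℝ) ^ (mstar2 d / 4) ≤ (1 / 2 : ℝ) ^ 2 :=
      pow_le_pow_of_le_one (by norm_num) (by norm_num) (by omega)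
    rw [hε]
    norm_num at h1 ⊢
    linarith
  have hcardmul : ∀ (S : Finset (ZMod P × (Fin (mstar2 d) → ZMod 2))), ((S.card : ℝ) ≤ ε * ((P : ℝ) * 2 ^ mstar2 d)) →
      (S.card : ℝ) ≤ ε * (Fintype.card (ZMod P × (Fin (mstar2 d) → ZMod 2)) : ℝ) := by
    intro S hS
    rw [hcardG]
    exact hS
  -- the family of lattice points
  let A : (Fin t → ℤ) → Finset (Fin d → ℤ) := fun u =>
    if hu : u ∈ gHeights43 t n then lat (B' ⟨u, hu⟩) R else ∅
  have hAeq : ∀ u (hu : u ∈ gHeights43 t n), A u = lat (B' ⟨u, hu⟩) R := fun u hu => dif_pos hu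
  have hAne : ∀ u (hu : u ∉ gHeights43 t n), A u = ∅ := fun u hu => dif_neg hu
  have hA : ∀ u : Fin t → ℤ, (∀ i, -((2 * n : ℕ) : ℤ) ≤ u i ∧ u i < ((2 * n : ℕ) : ℤ)) → ∀ a ∈ A u,
      ((1 - 2 * δ)⁻¹ • ((fun i => (a i : ℝ) / R) - (2 * δ) • cy),
        (1 - 2 * δ)⁻¹ • (fun i => (u i : ℝ) / ((2 * n : ℕ) : ℝ))) ∈ K' := by
    intro u _ a ha
    by_cases hu' : u ∈ gHeights43 t n
    · rw [hAeq u hu'] at ha
      have h1 := (mem_lat (hB'K ⟨u, hu'⟩).isBounded hR a).mp ha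
      exact hB'mem ⟨u, hu'⟩ _ h1
    · rw [hAne u hu'] at ha
      simp at ha
  let σ : (Fin t → ℤ) → ℝ := fun u => if u ∈ gHeights43 t n then ε else 1
  have hσ : ∀ u, 0 < σ u := by
    intro u
    simp only [σ]
    split_ifs
    · exact hε0
    · exact one_pos
  have hG0 : (0 : ℝ) ≤ Fintype.card (ZMod P × (Fin (mstar2 d) → ZMod 2)) := Nat.cast_nonneg _
  have hvoid' : ∀ [DecidableEq (ZMod P × (Fin (mstar2 d) → ZMod 2))],
      ∀ u : Fin t → ℤ, (∀ i, -((2 * n : ℕ) : ℤ) ≤ u i ∧ u i < ((2 * n : ℕ) : ℤ)) →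
      (((univ \ (A u).image (hash r' ρ) : Finset (ZMod P × (Fin (mstar2 d) → ZMod 2)))).card : ℝ) ≤
        σ u * Fintype.card (ZMod P × (Fin (mstar2 d) → ZMod 2)) := by
    intro _ u _
    by_cases hu' : u ∈ gHeights43 t n
    · have hσu : σ u = ε := if_pos hu'
      rw [hσu]
      have h1 := hvoid ⟨u, hu'⟩
      apply hcardmul
      convert h1 using 3
      ext c
      simp only [Finset.mem_sdiff, Finset.mem_univ, true_and, Finset.mem_image, Finset.mem_filter,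
        hAeq u hu', not_exists, not_and]
    · have hσu : σ u = 1 := if_neg hu'
      rw [hσu, one_mul]
      exact_mod_cast Finset.card_le_univ _
  have hu0 : (0 : Fin t → ℤ) ∈ gHeights43 t n := by
    rw [mem_gHeights43]
    constructor
    · intro i
      have : (0 : ℤ) < ((2 * n : ℕ) : ℤ) := by
        have : 0 < 2 * n := by omega
        exact_mod_cast this
      simp only [Pi.zero_apply]
      omega
    · simp only [Pi.zero_apply]
      simp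
  have hsurj : Function.Surjective (hash r' ρ) :=
    surj_of_large (hash r' ρ) (lat (B' ⟨0, hu0⟩) R) ε hε1 (hcardmul _ (hvoid ⟨0, hu0⟩))
  have hinj : Set.InjOn (hash r' ρ) (lat C₁ R : Set (Fin d → ℤ)) :=
    aux_inj (hash r' ρ) C₁ C₀ hC₁K hC₀K hsym hadd R hR hne
  have he0 : e02 d = efin2 d + mstar2 d := rfl
  have hcardle : (P : ℝ) * 2 ^ mstar2 d ≤ (R : ℝ) ^ d * V₀ :=
    aux_cardle3 δ hκ0 hκ1 V₀ hV₀ R P hRd hPpos hP1
  have hdel4 : δ / 4 = 1 / (4 * (n : ℝ)) := by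
    rw [hδ]
    field_simp
  have hZ : (2 * (((2 * n : ℕ) : ℝ))) = 4 * (n : ℝ) := by
    push_cast
    ring
  have hcount : ∀ u : Fin t → ℤ, (∀ i, 0 ≤ u i ∧ u i < ((2 * n : ℕ) : ℤ)) →
      ((2 * (((2 * n : ℕ) : ℝ))) ^ t) ^ (2 ^ t - 1) *
        (∏ q : Fin t → Bool, σ (u - qshift (((2 * n : ℕ) : ℤ)) q)) *
      Fintype.card (ZMod P × (Fin (mstar2 d) → ZMod 2)) < (lat C₁ R).card := by
    intro u hu
    rw [hcardG, hZ]
    have hprod := prod_sigma_le43 hn0 ε hε0 (by linarith) u hu σ (fun w => rfl)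
    exact aux_count (n : ℝ) hnR0 _ _ _ _ V₀ _ _ δ hdel4 (by positivity) (by positivity) hprod
      (by positivity) hV₀ hRd hnum2 hcardle hY1c
  have hcov := abstract_cover2 (G := ZMod P × (Fin (mstar2 d) → ZMod 2)) K' hK'c δ hδ0 hδ1 (2 * n)
    (by omega) (by
      rw [hδ]
      push_cast
      field_simp
      exact le_refl _) cy hcy (by
      exact aux_win43 K' V₀ hV₀ hwin)
    C₁ hsym hC R hR (by
      intro τ hτ
      apply hball
      intro i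
      rw [abs_of_nonneg (hτ i).1]
      exact (hτ i).2.trans hRr) (hash r' ρ) hsurj A hA (lat C₁ R)
    (fun m hm => (mem_lat hC₁K.isBounded hR m).mp hm) hinj σ hσ (@hvoid' (fun a b => Classical.propDecidable (a = b))) hcount
  obtain ⟨B, hdet, hB⟩ := hcov
  refine ⟨B, R, hR, hB, ?_⟩
  have hdet' : |(B.det : ℝ)| = (P : ℝ) * 2 ^ mstar2 d := by
    rw [← hcardG]
    have h1 : ((|B.det| : ℤ) : ℝ) = ((Fintype.card (ZMod P × (Fin (mstar2 d) → ZMod 2)) : ℤ) : ℝ) := by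
      rw [hdet]
    simpa using h1
  rw [hdet', ← hκ, div_le_iff₀ (by positivity)]
  have h2 : (2 : ℝ) ^ (e02 d + 2) = 2 ^ mstar2 d * 2 ^ (efin2 d + 2) := by
    rw [he0, ← pow_add]
    congr 1
    ring
  rw [h2] at hP2
  calc (R : ℝ) ^ d * ((1 - 2 * δ) ^ d * V₀) ≤ 2 ^ mstar2 d * 2 ^ (efin2 d + 2) * (P : ℝ) := hP2
    _ = _ := by ring

end Vale.Agent.Lib.P230.Lin43
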